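import Vale.Agent.P070.Final

universe u v w

theorem Vale.Agent.Results.P070.Counterexample.result :
    ∃ (A : Type) (_ : CStarAlgebra A),
      Vale.Agent.P070.PropertyN.{u, v} A ∧ ¬ Vale.Agent.P070.IsoToCompacts.{w} A :=
  Vale.Agent.P070.exists_counterexample
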